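import Vale.Agent.P088.R2.H464.EP.Cur
import Vale.Agent.P088.R2.H464.EP.SymU
import Vale.Agent.P088.R2.H644.W.Chain
import Vale.Agent.P088.R2.H747.S.SemS

/-!
# P088, stage 3, far pairs: the Hessian form of the distance `r = √(2 ρ)`

TH r ≥ - (small) (|A| + |B|)², |TH r| ≤ C (|A| + |B|)² / r, (GA r)² ≤ C (|A| + |B|)².
-/

open Set Filter
open scoped ContDiff Topology Matrix

noncomputable section

namespace Vale.Agent.P088.R2.H271.F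

open Vale.Agent.P088.LR Vale.Agent.P088.HY Vale.Agent.P088.R2.H961.GW Vale.Agent.P088.R2.H644.Ch
open Vale.Agent.P088.R2.H464.Cu
open Vale.Agent.P088.R2.H747.SW (ss)

variable {n : ℕ}

/-! ## Cauchy-Schwarz -/

theorem bf_add_l (G : Matrix (Fin n) (Fin n) ℝ) (a b c : V n) :
    bf G (a + b) c = bf G a c + bf G b c := by
  unfold bf
  simp only [Pi.add_apply, ← Finset.sum_add_distrib]
  exact Finset.sum_congr rfl fun i _ => Finset.sum_congr rfl fun j _ => by ring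

theorem bf_add_r (G : Matrix (Fin n) (Fin n) ℝ) (a b c : V n) :
    bf G a (b + c) = bf G a b + bf G a c := by
  unfold bf
  simp only [Pi.add_apply, ← Finset.sum_add_distrib]
  exact Finset.sum_congr rfl fun i _ => Finset.sum_congr rfl fun j _ => by ring

theorem bf_smul_l (G : Matrix (Fin n) (Fin n) ℝ) (t : ℝ) (a c : V n) :
    bf G (t • a) c = t * bf G a c := by
  unfold bf
  simp only [Pi.smul_apply, smul_eq_mul, Finset.mul_sum]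
  exact Finset.sum_congr rfl fun i _ => Finset.sum_congr rfl fun j _ => by ring

theorem bf_smul_r (G : Matrix (Fin n) (Fin n) ℝ) (t : ℝ) (a c : V n) :
    bf G a (t • c) = t * bf G a c := by
  unfold bf
  simp only [Pi.smul_apply, smul_eq_mul, Finset.mul_sum]
  exact Finset.sum_congr rfl fun i _ => Finset.sum_congr rfl fun j _ => by ring

theorem bf_comm' {G : Matrix (Fin n) (Fin n) ℝ} (hG : ∀ i j, G i j = G j i) (a b : V n) :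
    bf G a b = bf G b a := by
  unfold bf
  rw [Finset.sum_comm]
  exact Finset.sum_congr rfl fun i _ => Finset.sum_congr rfl fun j _ => by rw [hG j i]; ring

/-- Cauchy-Schwarz for a nonnegative symmetric form. -/
theorem bf_cs {G : Matrix (Fin n) (Fin n) ℝ} (hG : ∀ i j, G i j = G j i)
    (h0 : ∀ v : V n, 0 ≤ bf G v v) (a b : V n) : bf G a b ^ 2 ≤ bf G a a * bf G b b := by
  have key : ∀ t : ℝ, 0 ≤ bf G b b * (t * t) + 2 * bf G a b * t + bf G a a := by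
    intro t
    have h := h0 (a + t • b)
    rw [bf_add_l, bf_add_r, bf_add_r, bf_smul_l, bf_smul_l, bf_smul_r, bf_smul_r,
      bf_comm' hG b a] at h
    linarith
  have h := discrim_le_zero key
  unfold discrim at h
  linarith

/-! ## Scalar part -/

theorem th_low {Q2 Q1 r t p b T P : ℝ} (hr : 0 < r) (hcs : Q1 ^ 2 ≤ Q2 * r ^ 2)
    (ht : |t| ≤ T * r) (hp : |p| ≤ P * r ^ 2) (hb : |Q1| ≤ b * r) (hP : 0 ≤ P) (h0 : 0 ≤ b) :
    -(T + 2 * b * P + P ^ 2 * r) ≤ 1 / r * (Q2 + t) - 1 / r ^ 3 * (Q1 + p) ^ 2 := by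
  have h1 : (Q1 + p) ^ 2 ≤ Q2 * r ^ 2 + (2 * b * P * r ^ 3 + P ^ 2 * r ^ 4) := by
    have a1 : |Q1 * p| ≤ b * r * (P * r ^ 2) := by
      rw [abs_mul]
      exact mul_le_mul hb hp (abs_nonneg _) (by positivity)
    have a2 : p ^ 2 ≤ (P * r ^ 2) ^ 2 := by
      rw [← sq_abs p]
      exact pow_le_pow_left₀ (abs_nonneg _) hp 2
    have a3 := le_abs_self (Q1 * p)
    nlinarith
  have h2 : 1 / r ^ 3 * (Q1 + p) ^ 2 ≤ Q2 / r + (2 * b * P + P ^ 2 * r) := by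
    rw [one_div, inv_mul_le_iff₀ (by positivity)]
    refine h1.trans (le_of_eq ?_)
    field_simp
  have h3 : -T ≤ 1 / r * t := by
    have := (abs_le.1 ht).1
    rw [one_div, inv_mul_eq_div, le_div_iff₀ hr]
    linarith
  have h4 : 1 / r * (Q2 + t) = Q2 / r + 1 / r * t := by ring
  rw [h4]
  linarith

theorem th_up {Q2 r t T P b : ℝ} (hr : 0 < r) (ht : |t| ≤ T * r) (hQ : Q2 ≤ b) :
    1 / r * (Q2 + t) - 1 / r ^ 3 * P ^ 2 ≤ b / r + T := by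
  have h0 : 0 ≤ 1 / r ^ 3 * P ^ 2 := by positivity
  have h1 : 1 / r * (Q2 + t) ≤ b / r + T := by
    have := (abs_le.1 ht).2
    rw [one_div, inv_mul_eq_div, div_le_iff₀ hr, add_mul, div_mul_cancel₀ _ hr.ne']
    linarith
  linarith

/-! ## The chain rule -/

theorem cp_sqrt {U : Set (VV n)} {f : VV n → ℝ} (hf : Sm U f)
    (h : ∀ z ∈ U, 0 < f z) : Cp U f (fun t => √(2 * t)) (fun t => (√(2 * t))⁻¹)
      (fun t => -(√(2 * t) ^ 3)⁻¹) where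
  su := hf
  s0 := (contDiffOn_const.mul hf).sqrt fun z hz => by
    have := h z hz
    positivity
  s1 := ((contDiffOn_const.mul hf).sqrt fun z hz => by
    have := h z hz
    positivity).inv fun z hz => by
    have := h z hz
    positivity
  d1 z hz := by
    have h0 := h z hz
    have h2 : (0 : ℝ) < 2 * f z := by positivity
    have h1 := ((hasDerivAt_id (f z)).const_mul 2).sqrt (by simpa using h2.ne')
    refine h1.congr_deriv ?_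
    simp only [id_eq]
    have : √(2 * f z) ≠ 0 := (Real.sqrt_pos.2 h2).ne'
    field_simp
  d2 z hz := by
    have h0 := h z hz
    have h2 : (0 : ℝ) < 2 * f z := by positivity
    have hs : √(2 * f z) ≠ 0 := (Real.sqrt_pos.2 h2).ne'
    have h1 := (((hasDerivAt_id (f z)).const_mul 2).sqrt (by simpa using h2.ne')).inv
      (by simpa using hs)
    refine h1.congr_deriv ?_
    simp only [id_eq]
    field_simp

/-- The constant. -/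
def cR (n : ℕ) : ℝ := 3200 * (n + 1) ^ 9

section fin

variable {m : ℕ} {e R Λ κ r N Y X S t p u : ℝ}

theorem m1 (m : ℕ) (k : ℕ) (hk : k ≤ 9) : (m : ℝ) ^ k ≤ (m + 1) ^ 9 := by
  have hm : (0 : ℝ) ≤ m := Nat.cast_nonneg m
  calc (m : ℝ) ^ k ≤ (m + 1) ^ k := by gcongr; linarith
    _ ≤ (m + 1) ^ 9 := pow_le_pow_right₀ (by linarith) hk

/-- The lower bound. -/
theorem fin_low (r0 : 0 < r) (N0 : 0 ≤ N) (u0 : 0 ≤ u) (hΛ : 1 ≤ Λ) (u3 : u ^ 2 * r ≤ Λ * u)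
    (hcs : X ^ 2 ≤ S * r ^ 2) (T1 : |t| ≤ 320 * (m + 1) ^ 9 * (Λ * u) * N ^ 2 * r)
    (P1 : |p| ≤ 4 * m ^ 4 * u * N * r ^ 2) (b1 : |X| ≤ 8 * m ^ 3 * N * r) :
    -(400 * (m + 1) ^ 9 * (Λ * u) * N ^ 2) ≤ 1 / r * (S + t) - 1 / r ^ 3 * (X + p) ^ 2 := by
  have hm : (0 : ℝ) ≤ m := Nat.cast_nonneg m
  have low := th_low (T := 320 * (m + 1) ^ 9 * (Λ * u) * N ^ 2) (P := 4 * m ^ 4 * u * N)
    (b := 8 * m ^ 3 * N) r0 hcs T1 P1 b1 (by positivity) (by positivity)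
  have L0 : 0 ≤ Λ * u := by positivity
  have uL : u ≤ Λ * u := by
    calc u = 1 * u := by ring
      _ ≤ Λ * u := by gcongr
  have x1 : 2 * (8 * m ^ 3 * N) * (4 * m ^ 4 * u * N) ≤ 64 * (m + 1) ^ 9 * (Λ * u) * N ^ 2 := by
    calc 2 * (8 * (m : ℝ) ^ 3 * N) * (4 * m ^ 4 * u * N) = 64 * m ^ 7 * u * N ^ 2 := by ring
      _ ≤ 64 * (m + 1) ^ 9 * (Λ * u) * N ^ 2 := by
        have := m1 m 7 (by norm_num)
        gcongr
  have x2 : (4 * m ^ 4 * u * N) ^ 2 * r ≤ 16 * (m + 1) ^ 9 * (Λ * u) * N ^ 2 := by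
    calc (4 * (m : ℝ) ^ 4 * u * N) ^ 2 * r = 16 * m ^ 8 * (u ^ 2 * r) * N ^ 2 := by ring
      _ ≤ 16 * (m + 1) ^ 9 * (Λ * u) * N ^ 2 := by
        have := m1 m 8 (by norm_num)
        gcongr
  linarith

theorem fin_up (hκ : 0 < κ) (hR0 : 0 < R) (r0 : 0 < r) (T1 : |t| ≤ 320 * (m + 1) ^ 9 * (Λ * u) * N ^ 2 * r)
    (b2 : S ≤ 8 * m ^ 4 * N ^ 2) (hu : Λ * u ≤ 1 / (κ * R)) (hr1 : κ * R / 8 ≤ r) (P : ℝ) :
    1 / r * (S + t) - 1 / r ^ 3 * P ^ 2 ≤ 400 * (m + 1) ^ 9 * (1 / (κ * R)) * N ^ 2 := by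
  have hm : (0 : ℝ) ≤ m := Nat.cast_nonneg m
  have upp := th_up (P := P) (T := 320 * (m + 1) ^ 9 * (Λ * u) * N ^ 2) r0 T1 b2
  have x1 : 8 * m ^ 4 * N ^ 2 / r ≤ 64 * (m + 1) ^ 9 * (1 / (κ * R)) * N ^ 2 := by
    have y1 : 8 * m ^ 4 * N ^ 2 / r ≤ 8 * m ^ 4 * N ^ 2 / (κ * R / 8) :=
      div_le_div_of_nonneg_left (by positivity) (by positivity) hr1
    have y2 : 8 * (m : ℝ) ^ 4 * N ^ 2 / (κ * R / 8) = 64 * m ^ 4 * (1 / (κ * R)) * N ^ 2 := by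
      field_simp
      ring
    rw [y2] at y1
    refine y1.trans ?_
    have := m1 m 4 (by norm_num)
    gcongr
  have x2 : 320 * (m + 1) ^ 9 * (Λ * u) * N ^ 2 ≤
      320 * (m + 1) ^ 9 * (1 / (κ * R)) * N ^ 2 := by
    gcongr
  have x4 : 0 ≤ (m + 1 : ℝ) ^ 9 * (1 / (κ * R)) * N ^ 2 := by positivity
  linarith

theorem fin_ga (r0 : 0 < r) (N0 : 0 ≤ N) (hur : u * r ≤ 1)
    (P1 : |p| ≤ 4 * m ^ 4 * u * N * r ^ 2) (b1 : |X| ≤ 8 * m ^ 3 * N * r) :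
    (r⁻¹ * (X + p)) ^ 2 ≤ 144 * (m + 1) ^ 9 * N ^ 2 := by
  have hm : (0 : ℝ) ≤ m := Nat.cast_nonneg m
  have x0 : |r⁻¹ * (X + p)| ≤ 12 * (m + 1) ^ 4 * N := by
    rw [abs_mul, abs_of_pos (inv_pos.2 r0), inv_mul_le_iff₀ r0]
    refine (abs_add_le _ _).trans ?_
    have x1 : 4 * m ^ 4 * u * N * r ^ 2 ≤ 4 * m ^ 4 * N * r := by
      calc 4 * (m : ℝ) ^ 4 * u * N * r ^ 2 = 4 * m ^ 4 * N * r * (u * r) := by ring
        _ ≤ 4 * m ^ 4 * N * r * 1 := mul_le_mul_of_nonneg_left hur (by positivity)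
        _ = _ := by ring
    have x2 : (m : ℝ) ^ 3 ≤ (m + 1) ^ 4 := by
      calc (m : ℝ) ^ 3 ≤ ((m : ℝ) + 1) ^ 3 := by gcongr; linarith
        _ ≤ ((m : ℝ) + 1) ^ 4 := pow_le_pow_right₀ (by linarith) (by norm_num)
    have x3 : (m : ℝ) ^ 4 ≤ (m + 1) ^ 4 := by gcongr; linarith
    have x4 := mul_le_mul_of_nonneg_right x2 (mul_nonneg N0 r0.le)
    have x5 := mul_le_mul_of_nonneg_right x3 (mul_nonneg N0 r0.le)
    linarith
  calc (r⁻¹ * (X + p)) ^ 2 ≤ (12 * (m + 1) ^ 4 * N) ^ 2 := by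
        rw [← sq_abs]
        exact pow_le_pow_left₀ (abs_nonneg _) x0 2
    _ = 144 * (m + 1) ^ 8 * N ^ 2 := by ring
    _ ≤ 144 * (m + 1) ^ 9 * N ^ 2 := by
        have x6 : ((m : ℝ) + 1) ^ 8 ≤ (m + 1) ^ 9 := pow_le_pow_right₀ (by linarith) (by norm_num)
        gcongr

theorem n2_le {x y a b : ℝ} (h1 : x ^ 2 ≤ 4 * a) (h2 : y ^ 2 ≤ 4 * b) :
    (x + y) ^ 2 ≤ 8 * (a + b) := by
  nlinarith [sq_nonneg (x - y)]

theorem err_T {D q : ℝ} (hR : 1 ≤ R) (hΛ : 1 ≤ Λ) (he0 : 0 ≤ e) (he1 : e ≤ 1)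
    (hr2 : r ≤ Λ * R) (r0 : 0 ≤ r) (N0 : 0 ≤ N) (D0 : 0 ≤ D) (q0 : 0 ≤ q) (hD : D ≤ 2 * r)
    (hq : q ≤ 2 * m * N) :
    20 * ((m : ℝ) + 1) ^ 8 * (e * R⁻¹ * D * q * N + (e * R⁻¹ ^ 2 + (e * R⁻¹) ^ 2) * D ^ 2 * N ^ 2 +
      (2 * (e * R⁻¹) + e * R⁻¹ * (2 * e)) * D * N ^ 2) ≤
      320 * (m + 1) ^ 9 * (Λ * (e * R⁻¹)) * N ^ 2 * r := by
  have hm : (0 : ℝ) ≤ m := Nat.cast_nonneg m
  have hR0 : 0 < R := by linarith
  have hΛ0 : 0 ≤ Λ := by linarith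
  have u2 : e * R⁻¹ ^ 2 * r ≤ Λ * (e * R⁻¹) := by
    calc e * R⁻¹ ^ 2 * r ≤ e * R⁻¹ ^ 2 * (Λ * R) := by gcongr
      _ = Λ * (e * R⁻¹) := by field_simp
  obtain ⟨u, hu⟩ : ∃ u, u = e * R⁻¹ := ⟨_, rfl⟩
  have u0 : 0 ≤ u := by rw [hu]; positivity
  have u3 : u ^ 2 * r ≤ Λ * u := by
    have h1 : u * r ≤ Λ := by
      rw [hu]
      calc e * R⁻¹ * r ≤ 1 * R⁻¹ * (Λ * R) := by gcongr
        _ = Λ := by field_simp
    calc u ^ 2 * r = u * (u * r) := by ring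
      _ ≤ u * Λ := mul_le_mul_of_nonneg_left h1 u0
      _ = Λ * u := by ring
  rw [← hu] at u2 ⊢
  obtain ⟨w, hw⟩ : ∃ w, w = e * R⁻¹ ^ 2 := ⟨_, rfl⟩
  have w0 : 0 ≤ w := by rw [hw]; positivity
  rw [← hw] at u2 ⊢
  have a1 : u * D * q * N ≤ 4 * m * (Λ * u) * r * N ^ 2 := by
    calc u * D * q * N ≤ u * (2 * r) * (2 * m * N) * N := by gcongr
      _ = 4 * m * (1 * u) * r * N ^ 2 := by ring
      _ ≤ _ := by gcongr
  have a2 : (w + u ^ 2) * D ^ 2 * N ^ 2 ≤ 8 * (Λ * u) * r * N ^ 2 := by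
    calc (w + u ^ 2) * D ^ 2 * N ^ 2 ≤ (w + u ^ 2) * (2 * r) ^ 2 * N ^ 2 := by gcongr
      _ = 4 * (w * r + u ^ 2 * r) * r * N ^ 2 := by ring
      _ ≤ 4 * (Λ * u + Λ * u) * r * N ^ 2 := by gcongr
      _ = _ := by ring
  have a3 : (2 * u + u * (2 * e)) * D * N ^ 2 ≤ 8 * (Λ * u) * r * N ^ 2 := by
    calc (2 * u + u * (2 * e)) * D * N ^ 2 ≤ (2 * u + u * (2 * 1)) * (2 * r) * N ^ 2 := by gcongr
      _ = 8 * (1 * u) * r * N ^ 2 := by ring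
      _ ≤ _ := by gcongr
  have a4 : (4 * m + 16 : ℝ) * (Λ * u) * r * N ^ 2 ≤ 16 * (m + 1) * (Λ * u) * r * N ^ 2 := by
    have : (4 * m + 16 : ℝ) ≤ 16 * (m + 1) := by linarith
    gcongr
  have a5 : u * D * q * N + (w + u ^ 2) * D ^ 2 * N ^ 2 + (2 * u + u * (2 * e)) * D * N ^ 2 ≤
      16 * (m + 1) * (Λ * u) * r * N ^ 2 := by
    calc _ ≤ 4 * m * (Λ * u) * r * N ^ 2 + 8 * (Λ * u) * r * N ^ 2 + 8 * (Λ * u) * r * N ^ 2 :=
          add_le_add (add_le_add a1 a2) a3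
      _ = (4 * m + 16 : ℝ) * (Λ * u) * r * N ^ 2 := by ring
      _ ≤ _ := a4
  calc 20 * ((m : ℝ) + 1) ^ 8 * (u * D * q * N + (w + u ^ 2) * D ^ 2 * N ^ 2 +
        (2 * u + u * (2 * e)) * D * N ^ 2)
      ≤ 20 * ((m : ℝ) + 1) ^ 8 * (16 * (m + 1) * (Λ * u) * r * N ^ 2) := by gcongr
    _ = _ := by ring

/-- The three bounds. -/
theorem fin_all {H G : ℝ} (hR : 1 ≤ R) (hΛ : 1 ≤ Λ) (he0 : 0 ≤ e) (he1 : e ≤ 1)
    (hΛe : Λ * e ≤ 1) (hκ : 0 < κ) (hκ1 : κ ≤ 1) (hr1 : κ * R / 8 ≤ r) (hr2 : r ≤ Λ * R)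
    (N0 : 0 ≤ N) (hcs : X ^ 2 ≤ S * r ^ 2)
    (T1 : |t| ≤ 320 * (m + 1) ^ 9 * (Λ * (e * R⁻¹)) * N ^ 2 * r)
    (P1 : |p| ≤ 4 * m ^ 4 * (e * R⁻¹) * N * r ^ 2) (b1 : |X| ≤ 8 * m ^ 3 * N * r)
    (b2 : S ≤ 8 * m ^ 4 * N ^ 2) (N2 : N ^ 2 ≤ 8 * Y)
    (eT : H = r⁻¹ * (S + t) + -(r ^ 3)⁻¹ * (X + p) ^ 2) (eG : G = r⁻¹ * (X + p)) :
    |H| ≤ cR m / (κ * R) * Y ∧ -(cR m * (Λ * e / R) * Y) ≤ H ∧ G ^ 2 ≤ cR m * Y := by
  have hm : (0 : ℝ) ≤ m := Nat.cast_nonneg m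
  have hR0 : 0 < R := by linarith
  have hΛ0 : 0 ≤ Λ := by linarith
  have kR : 0 < κ * R := by positivity
  have r0 : 0 < r := lt_of_lt_of_le (by positivity) hr1
  obtain ⟨u, hu⟩ : ∃ u, u = e * R⁻¹ := ⟨_, rfl⟩
  have u0 : 0 ≤ u := by rw [hu]; positivity
  have hur : u * r ≤ Λ * e := by
    rw [hu]
    calc e * R⁻¹ * r ≤ e * R⁻¹ * (Λ * R) := by gcongr
      _ = Λ * e := by field_simp
  have u3 : u ^ 2 * r ≤ Λ * u := by
    calc u ^ 2 * r = u * (u * r) := by ring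
      _ ≤ u * (Λ * e) := mul_le_mul_of_nonneg_left hur u0
      _ ≤ u * (Λ * 1) := by gcongr
      _ = Λ * u := by ring
  have hu' : Λ * u = Λ * e / R := by rw [hu]; field_simp
  have Le : Λ * e / R ≤ 1 / (κ * R) := by
    rw [div_le_div_iff₀ hR0 kR]
    calc Λ * e * (κ * R) ≤ 1 * (1 * R) := by gcongr
      _ = 1 * R := by ring
  rw [← hu] at T1 P1
  have e1 : H = 1 / r * (S + t) - 1 / r ^ 3 * (X + p) ^ 2 := by rw [eT]; ring
  have low := fin_low r0 N0 u0 hΛ u3 hcs T1 P1 b1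
  have upp := fin_up hκ hR0 r0 T1 b2 (by rw [hu']; exact Le) hr1 (X + p)
  have ga := fin_ga r0 N0 (hur.trans hΛe) P1 b1
  rw [← e1] at low upp
  rw [← eG] at ga
  have Y0 : 0 ≤ Y := by have := sq_nonneg N; linarith
  have L0 : 0 ≤ Λ * u := by positivity
  have c2 : 400 * (m + 1) ^ 9 * (Λ * u) * N ^ 2 ≤ cR m * (Λ * e / R) * Y := by
    unfold cR
    rw [← hu']
    calc 400 * ((m : ℝ) + 1) ^ 9 * (Λ * u) * N ^ 2 ≤
        400 * ((m : ℝ) + 1) ^ 9 * (Λ * u) * (8 * Y) := by gcongr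
      _ = _ := by ring
  have x3 : 400 * (m + 1) ^ 9 * (1 / (κ * R)) * N ^ 2 ≤ cR m / (κ * R) * Y := by
    unfold cR
    calc 400 * ((m : ℝ) + 1) ^ 9 * (1 / (κ * R)) * N ^ 2 ≤
        400 * ((m : ℝ) + 1) ^ 9 * (1 / (κ * R)) * (8 * Y) := by gcongr
      _ = _ := by ring
  have x1 : cR m * (Λ * e / R) * Y ≤ cR m / (κ * R) * Y := by
    have c0 : 0 ≤ cR m := by unfold cR; positivity
    calc cR m * (Λ * e / R) * Y ≤ cR m * (1 / (κ * R)) * Y := by gcongr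
      _ = _ := by ring
  refine ⟨?_, by linarith, ga.trans ?_⟩
  · rw [abs_le]
    constructor <;> linarith
  · unfold cR
    calc 144 * ((m : ℝ) + 1) ^ 9 * N ^ 2 ≤ 144 * ((m : ℝ) + 1) ^ 9 * (8 * Y) := by gcongr
      _ ≤ 400 * ((m : ℝ) + 1) ^ 9 * (8 * Y) := by gcongr; norm_num
      _ = _ := by ring

end fin

/-! ## The point -/

section pt

variable {s₁ s₂ g s : MF n} {O : Set (V n)} {ε ε' δ δ' η η' e R Λ κ : ℝ} {z : VV n}

theorem nr_mono (h : Nr O ε δ η s) (h1 : ε ≤ ε') (h2 : δ ≤ δ') (h3 : η ≤ η') :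
    Nr O ε' δ' η' s :=
  ⟨h.sm, h.sy, fun x hx i j => (h.b0 x hx i j).trans h1,
    fun x hx k i j => (h.b1 x hx k i j).trans h2, fun x hx l k i j => (h.b2 x hx l k i j).trans h3⟩

theorem nr_dst (h : Nr O ε δ η s₁) (h' : Nr O ε δ η s₂) : Dst O (2 * ε) (2 * δ) s₁ s₂ where
  b0 x hx i j := by
    have a := h.b0 x hx i j
    have b := h'.b0 x hx i j
    rw [abs_le] at *
    constructor <;> linarith [a.1, a.2, b.1, b.2]
  b1 x hx k i j := by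
    have a := h.b1 x hx k i j
    have b := h'.b1 x hx k i j
    rw [abs_le] at *
    constructor <;> linarith [a.1, a.2, b.1, b.2]

theorem ss_x (A : V n) : ss (sx s₁) A z = bf (s₁ z.1) A A := rfl

theorem ss_y (A : V n) : ss (sy s₂) A z = bf (s₂ z.2) A A := rfl

theorem nm_ss {S : Matrix (Fin n) (Fin n) ℝ} (hε : n * ε ≤ 1 / 2)
    (h : ∀ i j, |S i j - (1 : Matrix (Fin n) (Fin n) ℝ) i j| ≤ ε) (A : V n) :
    ‖A‖ ^ 2 ≤ 4 * bf S A A := by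
  have h1 := form_ge hε h A
  have h2 : ‖A‖ ^ 2 ≤ dt A A := by
    rcases isEmpty_or_nonempty (Fin n) with h | h
    · have : A = 0 := Subsingleton.elim _ _
      rw [this]; simp [dt]
    · obtain ⟨i, -, hi⟩ := Finset.exists_mem_eq_sup' (Finset.univ_nonempty (α := Fin n))
        (fun i => ‖A i‖)
      have e : ‖A‖ = ‖A i‖ := by
        refine le_antisymm ?_ (norm_le_pi_norm A i)
        rw [pi_norm_le_iff_of_nonneg (norm_nonneg _)]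
        intro j
        rw [← hi]
        exact Finset.le_sup' (fun i => ‖A i‖) (Finset.mem_univ j)
      rw [e, Real.norm_eq_abs, sq_abs, pow_two]
      exact Finset.single_le_sum (f := fun i => A i * A i) (fun i _ => mul_self_nonneg _)
        (Finset.mem_univ i)
  linarith

/-- **The distance `r` at one point.** -/
theorem rr_pt (n₁ : Nr univ e (e * R⁻¹) (e * R⁻¹ ^ 2) s₁)
    (n₂ : Nr univ e (e * R⁻¹) (e * R⁻¹ ^ 2) s₂) (ng : Nr univ e (e * R⁻¹) (e * R⁻¹ ^ 2) g)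
    (he0 : 0 ≤ e) (he1 : e ≤ 1) (hε : n * e ≤ 1 / 2) (hR : 1 ≤ R) (hΛ : 1 ≤ Λ)
    (hΛe : Λ * e ≤ 1) (hκ : 0 < κ) (hκ1 : κ ≤ 1) (hr1 : κ * R / 8 ≤ √(2 * rq g z))
    (hr2 : √(2 * rq g z) ≤ Λ * R) (A B : V n) :
    |TH (sx s₁) (sy s₂) (fun z => √(2 * rq g z)) z A B| ≤
      cR n / (κ * R) * (bf (s₁ z.1) A A + bf (s₂ z.2) B B) ∧
    -(cR n * (Λ * e / R) * (bf (s₁ z.1) A A + bf (s₂ z.2) B B)) ≤
      TH (sx s₁) (sy s₂) (fun z => √(2 * rq g z)) z A B ∧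
    GA (sx s₁) (sy s₂) (fun z => √(2 * rq g z)) z A B ^ 2 ≤
      cR n * (bf (s₁ z.1) A A + bf (s₂ z.2) B B) := by
  have hR0 : 0 < R := by linarith
  have hm : (0 : ℝ) ≤ n := Nat.cast_nonneg n
  obtain ⟨r, hr⟩ : ∃ r, r = √(2 * rq g z) := ⟨_, rfl⟩
  rw [← hr] at hr1 hr2
  have r0 : 0 < r := lt_of_lt_of_le (by positivity) hr1
  have hρ : 0 < 2 * rq g z := Real.sqrt_pos.1 (hr ▸ r0)
  have hr_sq : r ^ 2 = bf (g (mid z)) (dif z) (dif z) := by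
    rw [hr, Real.sq_sqrt hρ.le]
    unfold rq
    ring
  have hd : 0 ≤ e * R⁻¹ := by positivity
  have hd2 : 0 ≤ e * R⁻¹ ^ 2 := by positivity
  -- smoothness and the chain rule
  have srq : ContDiff ℝ ∞ (rq g) := by
    have h := sm_rq ng.sm
    have e0 : {z : VV n | mid z ∈ (univ : Set (V n))} = univ := by
      ext; simp
    rw [e0] at h
    exact contDiffOn_univ.1 h
  have hU : IsOpen {z : VV n | 0 < rq g z} := isOpen_lt continuous_const srq.continuous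
  have hz : z ∈ {z : VV n | 0 < rq g z} := by
    show 0 < rq g z
    linarith
  have cp := cp_sqrt (srq.contDiffOn (s := {z : VV n | 0 < rq g z})) fun _ h => h
  have fr : ∀ {s : MF n}, Nr univ e (e * R⁻¹) (e * R⁻¹ ^ 2) s →
      Fr0 (fun _ => 1) s (univ : Set (V n)) := fun h =>
    ⟨isOpen_univ, fun _ _ => one_pos, contDiffOn_const, h.sm, h.sy⟩
  have ok := okx (fr n₁) (fr n₂) hU (fun z _ => ⟨mem_univ _, mem_univ _⟩)
  have ot := oky (fr n₁) (fr n₂) hU (fun z _ => ⟨mem_univ _, mem_univ _⟩)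
  have eT := TH_comp ok ot cp hz A B
  have eG := GA_comp ok ot cp hz A B
  rw [← hr] at eT eG
  -- the two inputs
  have hT := TH_rq isOpen_univ convex_univ n₁ n₂ ng (nr_dst n₁ n₂) hd hd2 (by positivity)
    (by positivity) he1 hε (mem_univ z.1) (mem_univ z.2) A B
  have hG := GA_rq isOpen_univ convex_univ n₁ n₂ ng hd he1 (mem_univ z.1) (mem_univ z.2) A B
  obtain ⟨N, hN⟩ : ∃ N, N = ‖A‖ + ‖B‖ := ⟨_, rfl⟩
  have N0 : 0 ≤ N := by rw [hN]; positivity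
  rw [← hN] at hT hG
  obtain ⟨Q, hQ⟩ : ∃ Q, Q = up (s₁ z.1) A - up (s₂ z.2) B := ⟨_, rfl⟩
  rw [← hQ] at hT hG
  have kQ : ‖Q‖ ≤ 2 * n * N := by
    have a1 : ‖up (s₁ z.1) A‖ ≤ n * (2 * ‖A‖) :=
      up_le (fun i j => n₁.le2 he1 (mem_univ _) i j) A
    have a2 : ‖up (s₂ z.2) B‖ ≤ n * (2 * ‖B‖) :=
      up_le (fun i j => n₂.le2 he1 (mem_univ _) i j) B
    have := norm_sub_le (up (s₁ z.1) A) (up (s₂ z.2) B)
    rw [hQ, hN]
    linarith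
  have Q0 := norm_nonneg Q
  have q0 := norm_nonneg (dif z)
  have kq : ‖dif z‖ ≤ 2 * r := by
    have h1 := nm_ss hε (ng.b0 (mid z) (mem_univ _)) (dif z)
    rw [← hr_sq] at h1
    exact le_of_sq_le_sq (by linarith [h1]) (by positivity)
  have lo : ∀ v : V n, 0 ≤ bf (g (mid z)) v v := fun v => by
    have h1 := nm_ss hε (ng.b0 (mid z) (mem_univ _)) v
    have := sq_nonneg ‖v‖
    linarith
  have gG : ∀ i j, |g (mid z) i j| ≤ 2 := fun i j => ng.le2 he1 (mem_univ _) i j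
  have b1 : |bf (g (mid z)) Q (dif z)| ≤ 8 * n ^ 3 * N * r := by
    have h1 := bf_le (by norm_num : (0 : ℝ) ≤ 2) gG Q (dif z)
    refine h1.trans ?_
    calc (n : ℝ) ^ 2 * (2 * ‖Q‖ * ‖dif z‖) ≤ (n : ℝ) ^ 2 * (2 * (2 * n * N) * (2 * r)) := by gcongr
      _ = _ := by ring
  have b2 : bf (g (mid z)) Q Q ≤ 8 * n ^ 4 * N ^ 2 := by
    have h1 := (le_abs_self _).trans (bf_le (by norm_num : (0 : ℝ) ≤ 2) gG Q Q)
    refine h1.trans ?_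
    calc (n : ℝ) ^ 2 * (2 * ‖Q‖ * ‖Q‖) ≤ (n : ℝ) ^ 2 * (2 * (2 * n * N) * (2 * n * N)) := by gcongr
      _ = _ := by ring
  have hcs := bf_cs (fun i j => ng.sy (mid z) i j) lo Q (dif z)
  rw [← hr_sq] at hcs
  -- the errors
  have T1 : |TH (sx s₁) (sy s₂) (rq g) z A B - bf (g (mid z)) Q Q| ≤
      320 * (n + 1) ^ 9 * (Λ * (e * R⁻¹)) * N ^ 2 * r :=
    hT.trans (err_T hR hΛ he0 he1 hr2 r0.le N0 q0 Q0 kq kQ)
  have P1 : |GA (sx s₁) (sy s₂) (rq g) z A B - bf (g (mid z)) Q (dif z)| ≤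
      4 * n ^ 4 * (e * R⁻¹) * N * r ^ 2 := by
    refine hG.trans ?_
    have q2 : ‖dif z‖ ^ 2 ≤ (2 * r) ^ 2 := pow_le_pow_left₀ q0 kq 2
    have c1 : 0 ≤ (n : ℝ) ^ 4 * (e * R⁻¹) * N := by positivity
    have c2 := mul_le_mul_of_nonneg_left q2 c1
    calc (n : ℝ) ^ 4 * (e * R⁻¹ * ‖dif z‖ ^ 2 * N) = (n : ℝ) ^ 4 * (e * R⁻¹) * N * ‖dif z‖ ^ 2 := by
          ring
      _ ≤ (n : ℝ) ^ 4 * (e * R⁻¹) * N * (2 * r) ^ 2 := c2
      _ = _ := by ring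
  -- the final bounds
  have N2 : N ^ 2 ≤ 8 * (bf (s₁ z.1) A A + bf (s₂ z.2) B B) := by
    have a1 := nm_ss hε (n₁.b0 z.1 (mem_univ _)) A
    have a2 := nm_ss hε (n₂.b0 z.2 (mem_univ _)) B
    rw [hN]
    exact n2_le a1 a2
  obtain ⟨H, hH⟩ : ∃ H, H = TH (sx s₁) (sy s₂) (fun z => √(2 * rq g z)) z A B := ⟨_, rfl⟩
  obtain ⟨G, hG'⟩ : ∃ G, G = GA (sx s₁) (sy s₂) (fun z => √(2 * rq g z)) z A B := ⟨_, rfl⟩
  rw [← hH] at eT
  rw [← hG'] at eG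
  rw [← hH, ← hG']
  refine fin_all (X := bf (g (mid z)) Q (dif z)) (S := bf (g (mid z)) Q Q)
    (t := TH (sx s₁) (sy s₂) (rq g) z A B - bf (g (mid z)) Q Q)
    (p := GA (sx s₁) (sy s₂) (rq g) z A B - bf (g (mid z)) Q (dif z))
    hR hΛ he0 he1 hΛe hκ hκ1 hr1 hr2 N0 hcs T1 P1 b1 b2 N2 ?_ ?_
  · rw [add_sub_cancel, add_sub_cancel]
    exact eT
  · rw [add_sub_cancel]
    exact eG

end pt

end Vale.Agent.P088.R2.H271.F
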